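import Vale.Agent.P088.R2.H794.J.Fin
import Vale.Agent.P088.H72.K.Tg4
import Vale.Agent.P088.H378.KGs
import Vale.Agent.P088.H158.KMp
import Vale.Agent.P088.H947.KGa
import Vale.Agent.P088.H873.KExt
import Vale.Agent.P088.H535.USmk

/-!
# P088, two arbitrary pairs near the flat one on a smooth domain: row JB-FIN
-/

noncomputable section

namespace Vale.Agent.P088.PJ.Bd

open Vale.Agent.P088.LR Vale.Agent.P088.LR.K

/-- **Row JB-FIN.** -/
theorem rowFIN (hI : RowINF) (hR : PJ.RowRG) : RowFIN :=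
  finG H873.topo H501B.rowBOREL BX.map H292.ext H873.exc H158.mp K72.tg H947.KG.ga H378.gs
    H535.smk hI hR

end Vale.Agent.P088.PJ.Bd
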